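import Vale.Agent.P171.Main

open MeasureTheory Filter Topology Vale.Agent.P171

/-- There is a stable, tempered radial pair potential on `ℝ³` (even bounded, with two-sided
power decay) whose pressure is not differentiable in the activity at some point. -/
theorem Vale.Agent.Results.P171.PhaseTransition.result :
    ∃ φ : ℝ → ℝ, Measurable φ ∧ LocBounded φ ∧ Stable φ ∧ Tempered φ ∧
      (∃ C : ℝ, ∀ r, |φ r| ≤ C) ∧
      (∃ C ε R₀ : ℝ, 0 < ε ∧ ∀ r : ℝ, R₀ ≤ r → |φ r| ≤ C * r ^ (-3 - ε)) ∧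
      ∃ β : ℝ, 0 < β ∧
        (∀ (L : ℝ) (N : ℕ),
          IntegrableOn (fun x : Fin N → E3 => Real.exp (-β * U φ x)) (boxN L N)) ∧
        (∀ z : ℝ, 0 < z → ∀ L : ℝ, Summable fun N : ℕ => z ^ N * Z φ β L N) ∧
        ∃ P : ℝ → ℝ,
          (∀ z : ℝ, 0 < z →
            Tendsto (fun L : ℝ => (L ^ 3)⁻¹ * Real.log (∑' N : ℕ, z ^ N * Z φ β L N)) atTop
              (𝓝 (P z))) ∧
          ∃ z : ℝ, 0 < z ∧ ¬DifferentiableAt ℝ P z :=
  main
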